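import Vale.Agent.H53.Kurosh.Dickson

/-!
# Dimension over the centre from dimension over a subfield (P199, TASK COUNT)

If a division ring `D` with centre `F` is finite-dimensional, of dimension `n`, as a left vector
space over a field `K` acting compatibly with left multiplication, then `D` is
finite-dimensional over `F` of dimension at most `n ^ 2`.
-/

namespace Vale.Agent.H7

open Module

/-- An `F`-linearly independent finite family in `D` gives a `K`-linearly independent family of
right multiplications. -/
theorem linearIndependent_mulRight {F K D : Type*} [Field F] [Field K] [DivisionRing D]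
    [Algebra F D] [Algebra.IsCentral F D] [Module K D] [IsScalarTower K D D]
    {ι : Type*} [Fintype ι] (x : ι → D) (hx : LinearIndependent F x) :
    LinearIndependent K (fun j : ι => LinearMap.mulRight K (x j)) := by
  classical
  rw [Fintype.linearIndependent_iff]
  intro l hl j
  have key : ∀ y : D, ∑ j ∈ (Finset.univ : Finset ι), (l j • (1 : D)) * y * x j = 0 := by
    intro y
    have h1 := congrArg (fun f : Module.End K D => f y) hl
    simp only [LinearMap.sum_apply, LinearMap.smul_apply, LinearMap.mulRight_apply,
      LinearMap.zero_apply] at h1
    rw [← h1]
    refine Finset.sum_congr rfl fun j _ => ?_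
    rw [smul_one_mul, smul_mul_assoc]
  have h2 := Vale.Agent.H53.Kurosh.eq_zero_of_forall_sum_mul_mul_eq_zero (F := F) x hx
    Finset.univ (fun j => l j • (1 : D)) key j (Finset.mem_univ j)
  rcases smul_eq_zero.mp h2 with h | h
  · exact h
  · exact absurd h one_ne_zero

/-- (COUNT) If `D` has finite dimension `n` as a left vector space over a subfield `K`, then it
has dimension at most `n ^ 2` over its centre `F`. -/
theorem finite_and_finrank_le_sq {F K D : Type*} [Field F] [Field K] [DivisionRing D]
    [Algebra F D] [Algebra.IsCentral F D] [Module K D] [IsScalarTower K D D]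
    [Module.Finite K D] :
    Module.Finite F D ∧ Module.finrank F D ≤ (Module.finrank K D) ^ 2 := by
  have hrank : Module.rank F D ≤ ((Module.finrank K D) ^ 2 : ℕ) := by
    refine rank_le fun s hs => ?_
    have h1 := linearIndependent_mulRight (F := F) (K := K) (fun i : s => (i : D)) hs
    have h2 := h1.fintype_card_le_finrank
    rw [Module.finrank_linearMap] at h2
    simpa [sq] using h2
  have hfin : Module.Finite F D := by
    rw [← Module.rank_lt_aleph0_iff]
    exact lt_of_le_of_lt hrank (Cardinal.natCast_lt_aleph0)
  refine ⟨hfin, ?_⟩
  have := Module.finrank_le_of_rank_le hrank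
  exact this

end Vale.Agent.H7
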