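import Vale.Agent.H53.Kurosh.Commutators

/-!
# Division rings with finite centre whose commutators are algebraic (P199)

Let `D` be a division ring whose centre `F` is a finite field.  If every multiplicative
commutator (or every additive commutator) of `D` is algebraic over `F`, then `D` is commutative.

Combined with `Vale.Agent.H53.Kurosh.Commutators` (infinite centre) this removes the assumption
on the centre: a division ring whose commutators are left algebraic of bounded degree `d` over a
subfield has dimension at most `d ^ 2` over its centre.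
-/

namespace Vale.Agent.H7

open Polynomial Vale.Agent.H53.Kurosh

universe u v w

variable {F : Type v} {D : Type u} [Field F] [DivisionRing D] [Algebra F D]

/-- Over a finite field, a finite-dimensional subalgebra of a division ring is commutative
(Wedderburn's little theorem). -/
lemma mul_comm_of_fg [Finite F] (C : Subalgebra F D) (hC : (Subalgebra.toSubmodule C).FG)
    {x y : D} (hx : x ∈ C) (hy : y ∈ C) : x * y = y * x := by
  have : Module.Finite F C := Module.Finite.iff_fg.mpr hC
  have : Finite C := Module.finite_of_finite F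
  have hf := Finite.isDomain_to_isField C
  exact congrArg Subtype.val (hf.mul_comm ⟨x, hx⟩ ⟨y, hy⟩)

/-- Adjoining to a finite-dimensional subalgebra `A` an integral element `S` with
`S * A ⊆ A * F[S]`. -/
lemma exists_fg_of_skew (A : Subalgebra F D) (hA : (Subalgebra.toSubmodule A).FG) (S : D)
    (hS : IsIntegral F S)
    (hskew : ∀ c ∈ A, S * c ∈
      Subalgebra.toSubmodule A * Subalgebra.toSubmodule (Algebra.adjoin F {S})) :
    ∃ C : Subalgebra F D, (Subalgebra.toSubmodule C).FG ∧ A ≤ C ∧ S ∈ C := by
  set B : Subalgebra F D := Algebra.adjoin F {S} with hB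
  have hBfg : (Subalgebra.toSubmodule B).FG := hS.fg_adjoin_singleton
  have hstep : ∀ z ∈ Subalgebra.toSubmodule A * Subalgebra.toSubmodule B,
      S * z ∈ Subalgebra.toSubmodule A * Subalgebra.toSubmodule B := by
    intro z hz
    refine Submodule.mul_induction_on hz ?_ ?_
    · intro c hc b hb
      rw [← mul_assoc]
      have h1 : S * c * b ∈ Subalgebra.toSubmodule A * Subalgebra.toSubmodule B *
          Subalgebra.toSubmodule B := Submodule.mul_mem_mul (hskew c hc) hb
      rw [mul_assoc, (Subalgebra.isIdempotentElem_toSubmodule B).eq] at h1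
      exact h1
    · intro x y hx hy
      rw [mul_add]; exact add_mem hx hy
  have hpow : ∀ (n : ℕ), ∀ c ∈ A,
      S ^ n * c ∈ Subalgebra.toSubmodule A * Subalgebra.toSubmodule B := by
    intro n
    induction n with
    | zero => intro c hc; simpa using Vale.Agent.H53.Kurosh.le_mul_left A B hc
    | succ n ih => intro c hc; rw [pow_succ', mul_assoc]; exact hstep _ (ih c hc)
  have hcomm : Subalgebra.toSubmodule B * Subalgebra.toSubmodule A ≤
      Subalgebra.toSubmodule A * Subalgebra.toSubmodule B := by
    rw [Submodule.mul_le]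
    intro b hb a ha
    have hb' : b ∈ Submodule.span F (Submonoid.closure {S} : Set D) := by
      rw [← Algebra.adjoin_eq_span]; exact hb
    clear hb
    induction hb' using Submodule.span_induction with
    | mem x hx =>
      rw [SetLike.mem_coe, Submonoid.mem_closure_singleton] at hx
      obtain ⟨n, rfl⟩ := hx
      exact hpow n a ha
    | zero => simp
    | add x y _ _ hx hy => rw [add_mul]; exact add_mem hx hy
    | smul r x _ hx => rw [smul_mul_assoc]; exact Submodule.smul_mem _ r hx
  obtain ⟨C, hC⟩ := exists_subalgebra_mul A B hcomm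
  refine ⟨C, ?_, ?_, ?_⟩
  · rw [hC]; exact hA.mul hBfg
  · intro x hx
    have : x ∈ Subalgebra.toSubmodule C := by rw [hC]; exact Vale.Agent.H53.Kurosh.le_mul_left A B hx
    exact this
  · have : S ∈ Subalgebra.toSubmodule C := by
      rw [hC]; exact Vale.Agent.H53.Kurosh.le_mul_right A B (Algebra.subset_adjoin (Set.mem_singleton _))
    exact this

/-- If `b * x = x * a` with `b ∈ F[a]`, then `x` conjugates `F[a]` into itself. -/
lemma exists_conj_mem (a x b : D) (hb : b ∈ Algebra.adjoin F {a}) (hbx : b * x = x * a) :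
    ∀ c ∈ Algebra.adjoin F {a}, ∃ c' ∈ Algebra.adjoin F {a}, x * c = c' * x := by
  intro c hc
  induction hc using Algebra.adjoin_induction with
  | mem y hy =>
    rw [Set.mem_singleton_iff] at hy
    exact ⟨b, hb, by rw [hy, hbx]⟩
  | algebraMap r =>
    exact ⟨algebraMap F D r, Subalgebra.algebraMap_mem _ r, (Algebra.commutes r x).symm⟩
  | add y z _ _ hy hz =>
    obtain ⟨y', hy', e1⟩ := hy
    obtain ⟨z', hz', e2⟩ := hz
    exact ⟨y' + z', add_mem hy' hz', by rw [mul_add, add_mul, e1, e2]⟩
  | mul y z _ _ hy hz =>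
    obtain ⟨y', hy', e1⟩ := hy
    obtain ⟨z', hz', e2⟩ := hz
    exact ⟨y' * z', mul_mem hy' hz', by rw [← mul_assoc, e1, mul_assoc, e2, mul_assoc]⟩

/-- The key step: if `x` conjugates `a` to another element `b ≠ a` of the finite field `F[a]`,
then no element `g₁ * x + g₀` with `g₁ ≠ 0`, `g₀` in `F[a]` is algebraic over `F`. -/
theorem false_of_isIntegral_affine [Finite F] (a x b : D) (ha : IsIntegral F a) (hx : x ≠ 0)
    (hb : b ∈ Algebra.adjoin F {a}) (hbx : b * x = x * a) (hne : b ≠ a)
    (g₁ g₀ : D) (hg₁ : g₁ ∈ Algebra.adjoin F {a}) (hg₀ : g₀ ∈ Algebra.adjoin F {a})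
    (hg₁0 : g₁ ≠ 0) (hS : IsIntegral F (g₁ * x + g₀)) : False := by
  set A : Subalgebra F D := Algebra.adjoin F {a} with hA
  have hAfg : (Subalgebra.toSubmodule A).FG := ha.fg_adjoin_singleton
  have hnorm := exists_conj_mem a x b hb hbx
  set S : D := g₁ * x + g₀ with hSdef
  have hskew : ∀ c ∈ A, S * c ∈
      Subalgebra.toSubmodule A * Subalgebra.toSubmodule (Algebra.adjoin F {S}) := by
    intro c hc
    obtain ⟨c', hc', e⟩ := hnorm c hc
    have hcomm : g₁ * c' = c' * g₁ :=
      (Algebra.commute_of_mem_adjoin_singleton_of_commute hc'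
        (Algebra.commute_of_mem_adjoin_self hg₁).symm).eq
    have e2 : S * c = c' * S + (g₀ * c - c' * g₀) := by
      rw [hSdef, add_mul, mul_assoc, e, ← mul_assoc, hcomm, mul_add, mul_assoc]
      abel
    rw [e2]
    refine add_mem ?_ ?_
    · exact Submodule.mul_mem_mul hc' (Algebra.subset_adjoin (Set.mem_singleton _))
    · have hmem : g₀ * c - c' * g₀ ∈ A := sub_mem (mul_mem hg₀ hc) (mul_mem hc' hg₀)
      exact Vale.Agent.H53.Kurosh.le_mul_left A _ hmem
  obtain ⟨C, hCfg, hAC, hSC⟩ := exists_fg_of_skew A hAfg S hS hskew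
  have hg₁C : g₁⁻¹ ∈ C := inv_mem_of_fg C hCfg (hAC hg₁)
  have hxC : x ∈ C := by
    have e : x = g₁⁻¹ * (S - g₀) := by
      rw [hSdef, add_sub_cancel_right, ← mul_assoc, inv_mul_cancel₀ hg₁0, one_mul]
    rw [e]
    exact mul_mem hg₁C (sub_mem hSC (hAC hg₀))
  have haC : a ∈ C := hAC (Algebra.subset_adjoin (Set.mem_singleton _))
  have h1 : x * a = a * x := mul_comm_of_fg C hCfg hxC haC
  rw [← hbx] at h1
  exact hne (mul_right_cancel₀ hx h1)

/-- Frobenius: `a ^ |F|` is a root of the minimal polynomial of `a` over the finite field `F`. -/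
lemma aeval_pow_card_minpoly [Fintype F] (a : D) :
    aeval (a ^ Fintype.card F) (minpoly F a) = 0 := by
  rw [← expand_aeval, FiniteField.expand_card, map_pow, minpoly.aeval,
    zero_pow Fintype.card_ne_zero]

/-- An algebraic element outside the finite centre `F` is moved by the Frobenius power map. -/
lemma pow_card_ne_self [Fintype F] (a : D) (ha : IsIntegral F a)
    (hnc : a ∉ (algebraMap F D).range) : a ^ Fintype.card F ≠ a := by
  intro h
  have hq : 1 < Fintype.card F := Fintype.one_lt_card
  have hP0 : (X ^ Fintype.card F - X : F[X]) ≠ 0 := FiniteField.X_pow_card_sub_X_ne_zero F hq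
  have hdvd : minpoly F a ∣ (X ^ Fintype.card F - X : F[X]) :=
    minpoly.dvd F a (by simp [h])
  obtain ⟨k, hk⟩ := hdvd
  have hroots : (minpoly F a).roots = 0 := by
    rw [Multiset.eq_zero_iff_forall_notMem]
    intro c hc
    have hroot : IsRoot (minpoly F a) c := (mem_roots (minpoly.ne_zero ha)).mp hc
    have hdeg := degree_eq_one_of_irreducible_of_root (minpoly.irreducible ha) hroot
    exact hnc (minpoly.mem_range_of_degree_eq_one F a hdeg)
  have hk0 : k ≠ 0 := by
    rintro rfl
    rw [mul_zero] at hk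
    exact hP0 hk
  have h1 : (X ^ Fintype.card F - X : F[X]).roots.card = Fintype.card F := by
    rw [FiniteField.roots_X_pow_card_sub_X]; simp
  have h2 : (X ^ Fintype.card F - X : F[X]).roots = (minpoly F a).roots + k.roots := by
    rw [hk]; exact roots_mul (hk ▸ hP0)
  have h3 : k.roots.card ≤ k.natDegree := card_roots' k
  have h4 : (X ^ Fintype.card F - X : F[X]).natDegree = Fintype.card F :=
    FiniteField.X_pow_card_sub_X_natDegree_eq F hq
  have h5 : (minpoly F a * k).natDegree = (minpoly F a).natDegree + k.natDegree :=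
    natDegree_mul (minpoly.ne_zero ha) hk0
  have h6 : 0 < (minpoly F a).natDegree := minpoly.natDegree_pos ha
  rw [hk, h5] at h4
  rw [h2, hroots, zero_add] at h1
  omega

/-- Elements of the subalgebra generated by an integral element are integral, and so are their
inverses. -/
lemma isIntegral_of_mem_adjoin {w z : D} (hw : IsIntegral F w) (hz : z ∈ Algebra.adjoin F {w}) :
    IsIntegral F z :=
  IsIntegral.of_mem_of_fg _ hw.fg_adjoin_singleton z hz

/-- An element which does not commute with everything is not in the image of the centre. -/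
lemma not_mem_range_of_not_comm (a : D) (hnc : ∃ b : D, b * a ≠ a * b) :
    a ∉ (algebraMap F D).range := by
  rintro ⟨r, rfl⟩
  obtain ⟨b, hb⟩ := hnc
  exact hb (Algebra.commutes r b).symm

/-- **Additive commutators, finite centre.** An algebraic noncentral element `a` of a division
ring with finite centre `F` gives an additive commutator `g * a - a * g` which is not algebraic
over `F`. -/
theorem exists_add_commutator_not_algebraic [Finite F] [Algebra.IsCentral F D] (a : D)
    (ha : IsAlgebraic F a) (hnc : ∃ b : D, b * a ≠ a * b) :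
    ∃ g : D, ¬ IsAlgebraic F (g * a - a * g) := by
  cases nonempty_fintype F
  have hai : IsIntegral F a := ha.isIntegral
  have hnr : a ∉ (algebraMap F D).range := not_mem_range_of_not_comm a hnc
  obtain ⟨x, hx0, hx⟩ := exists_conj_of_root a (a ^ Fintype.card F) hai (aeval_pow_card_minpoly a)
  have hne := pow_card_ne_self a hai hnr
  have haA : a ∈ Algebra.adjoin F {a} := Algebra.subset_adjoin (Set.mem_singleton _)
  have hbA : a ^ Fintype.card F ∈ Algebra.adjoin F {a} := pow_mem haA _
  refine ⟨x, fun halg => ?_⟩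
  have hint : IsIntegral F (x * a - a * x) := halg.isIntegral
  have e : x * a - a * x = (a ^ Fintype.card F - a) * x + 0 := by
    rw [add_zero, sub_mul, hx]
  rw [e] at hint
  exact false_of_isIntegral_affine a x _ hai hx0 hbA hx hne _ 0 (sub_mem hbA haA) (zero_mem _)
    (sub_ne_zero.mpr hne) hint

/-- **Multiplicative commutators, finite centre.** An algebraic noncentral element `a` of a
division ring with finite centre `F`, `q = |F|`, gives a multiplicative commutator
`g * a ^ q * g⁻¹ * (a ^ q)⁻¹` which is not algebraic over `F`. -/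
theorem exists_mul_commutator_not_algebraic [Finite F] [Algebra.IsCentral F D] (a : D)
    (ha : IsAlgebraic F a) (hnc : ∃ b : D, b * a ≠ a * b) :
    ∃ g : D, g ≠ 0 ∧ ¬ IsAlgebraic F (g * a ^ (Nat.card F) * g⁻¹ * (a ^ (Nat.card F))⁻¹) := by
  cases nonempty_fintype F
  rw [Nat.card_eq_fintype_card]
  have hai : IsIntegral F a := ha.isIntegral
  have hnr : a ∉ (algebraMap F D).range := not_mem_range_of_not_comm a hnc
  obtain ⟨x, hx0, hx⟩ := exists_conj_of_root a (a ^ Fintype.card F) hai (aeval_pow_card_minpoly a)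
  have hne := pow_card_ne_self a hai hnr
  set a₁ : D := a ^ Fintype.card F with ha₁
  set A : Subalgebra F D := Algebra.adjoin F {a} with hA
  have hAfg : (Subalgebra.toSubmodule A).FG := hai.fg_adjoin_singleton
  have haA : a ∈ A := Algebra.subset_adjoin (Set.mem_singleton _)
  have hbA : a₁ ∈ A := pow_mem haA _
  have ha0 : a ≠ 0 := by
    rintro rfl
    exact hnr (zero_mem _)
  have ha₁0 : a₁ ≠ 0 := pow_ne_zero _ ha0
  have hy : x⁻¹ * a₁ = a * x⁻¹ := by
    have : x⁻¹ * (a₁ * x) * x⁻¹ = x⁻¹ * (x * a) * x⁻¹ := by rw [hx]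
    rw [← mul_assoc, mul_assoc, mul_inv_cancel₀ hx0, mul_one, ← mul_assoc,
      inv_mul_cancel₀ hx0, one_mul] at this
    exact this
  have hu0 : (1 + x⁻¹ : D) ≠ 0 := by
    intro h0
    have hxi : x⁻¹ = -1 := by
      have := eq_neg_of_add_eq_zero_right h0
      exact this
    rw [hxi] at hy
    apply hne
    have : -a₁ = -a := by simpa using hy
    exact neg_injective this
  have hd0 : a - a₁ ≠ 0 := sub_ne_zero.mpr (Ne.symm hne)
  refine ⟨1 + x⁻¹, hu0, fun halg => ?_⟩
  set w : D := (1 + x⁻¹) * a₁ * (1 + x⁻¹)⁻¹ * a₁⁻¹ with hw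
  have hint : IsIntegral F w := halg.isIntegral
  -- w - 1 = (a - a₁) x⁻¹ (1 + x⁻¹)⁻¹ a₁⁻¹
  have e1 : w - 1 = (a - a₁) * x⁻¹ * (1 + x⁻¹)⁻¹ * a₁⁻¹ := by
    have h1 : (1 : D) = a₁ * (1 + x⁻¹) * (1 + x⁻¹)⁻¹ * a₁⁻¹ := by
      rw [mul_assoc a₁, mul_inv_cancel₀ hu0, mul_one, mul_inv_cancel₀ ha₁0]
    have h2 : (1 + x⁻¹) * a₁ - a₁ * (1 + x⁻¹) = (a - a₁) * x⁻¹ := by
      rw [add_mul, mul_add, one_mul, mul_one, hy, sub_mul]
      abel
    calc w - 1 = (1 + x⁻¹) * a₁ * (1 + x⁻¹)⁻¹ * a₁⁻¹
          - a₁ * (1 + x⁻¹) * (1 + x⁻¹)⁻¹ * a₁⁻¹ := by rw [← h1]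
      _ = ((1 + x⁻¹) * a₁ - a₁ * (1 + x⁻¹)) * (1 + x⁻¹)⁻¹ * a₁⁻¹ := by
          simp only [sub_mul]
      _ = (a - a₁) * x⁻¹ * (1 + x⁻¹)⁻¹ * a₁⁻¹ := by rw [h2]
  -- the inverse of w - 1 is a₁ (x + 1) (a - a₁)⁻¹
  have e2 : (w - 1)⁻¹ = a₁ * (x + 1) * (a - a₁)⁻¹ := by
    have : (1 + x⁻¹) * x = x + 1 := by
      rw [add_mul, one_mul, inv_mul_cancel₀ hx0]
    rw [e1]
    simp only [mul_inv_rev, inv_inv, mul_assoc]
    rw [← mul_assoc (1 + x⁻¹) x, this]
  obtain ⟨h', hh', eh⟩ := exists_conj_mem a x a₁ hbA hx (a - a₁)⁻¹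
    (inv_mem_of_fg A hAfg (sub_mem haA hbA))
  have e3 : (w - 1)⁻¹ = a₁ * h' * x + a₁ * (a - a₁)⁻¹ := by
    rw [e2, mul_add, add_mul, mul_one, mul_assoc a₁ x, eh, ← mul_assoc]
  have hint2 : IsIntegral F ((w - 1)⁻¹) := by
    have hwB : w ∈ Algebra.adjoin F {w} := Algebra.subset_adjoin (Set.mem_singleton _)
    have hsub : w - 1 ∈ Algebra.adjoin F {w} := sub_mem hwB (one_mem _)
    exact isIntegral_of_mem_adjoin hint
      (inv_mem_of_fg _ hint.fg_adjoin_singleton hsub)
  rw [e3] at hint2
  have hh'0 : h' ≠ 0 := by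
    rintro rfl
    rw [zero_mul] at eh
    rcases mul_eq_zero.mp eh with h | h
    · exact hx0 h
    · exact hd0 (inv_eq_zero.mp h)
  exact false_of_isIntegral_affine a x a₁ hai hx0 hbA hx hne (a₁ * h') (a₁ * (a - a₁)⁻¹)
    (mul_mem hbA hh') (mul_mem hbA (inv_mem_of_fg A hAfg (sub_mem haA hbA)))
    (mul_ne_zero ha₁0 hh'0) hint2

/-- A commutative division ring equals its centre. -/
theorem surjective_algebraMap_of_comm [Algebra.IsCentral F D] (hc : ∀ a b : D, a * b = b * a) :
    Function.Surjective (algebraMap F D) := by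
  intro x
  have hx : x ∈ Subalgebra.center F D := by
    rw [Subalgebra.mem_center_iff]
    intro b
    exact hc b x
  have hx' : x ∈ (⊥ : Subalgebra F D) := Algebra.IsCentral.out hx
  exact Algebra.mem_bot.mp hx'

/-- If `F → D` is onto then `D` is one-dimensional over `F`. -/
theorem finite_and_finrank_eq_one_of_surjective
    (hsurj : Function.Surjective (algebraMap F D)) :
    Module.Finite F D ∧ Module.finrank F D = 1 := by
  have hinj : Function.Injective (algebraMap F D) := (algebraMap F D).injective
  let e : F ≃ₗ[F] D := LinearEquiv.ofBijective (Algebra.linearMap F D) ⟨hinj, hsurj⟩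
  exact ⟨Module.Finite.equiv e, by rw [← e.finrank_eq, Module.finrank_self]⟩

/-- If all multiplicative commutators of a division ring are central, it is commutative. -/
theorem mul_comm_of_mul_commutators_central
    (hcentral : ∀ a b : D, a ≠ 0 → b ≠ 0 → a * b * a⁻¹ * b⁻¹ ∈ (algebraMap F D).range) :
    ∀ a b : D, a * b = b * a := by
  intro a b
  by_contra hab
  have ha0 : a ≠ 0 := by
    rintro rfl
    exact hab (by simp)
  have hb0 : b ≠ 0 := by
    rintro rfl
    exact hab (by simp)
  have ha1 : a + 1 ≠ 0 := by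
    intro h0
    have : a = -1 := eq_neg_of_add_eq_zero_left h0
    exact hab (by rw [this]; simp)
  obtain ⟨l, hl⟩ := hcentral a b ha0 hb0
  obtain ⟨m, hm⟩ := hcentral (a + 1) b ha1 hb0
  -- a b = l b a and (a + 1) b = m b (a + 1)
  have e1 : a * b = algebraMap F D l * (b * a) := by
    rw [hl, mul_assoc, mul_assoc, inv_mul_cancel_left₀ hb0, inv_mul_cancel₀ ha0, mul_one]
  have e2 : (a + 1) * b = algebraMap F D m * (b * (a + 1)) := by
    rw [hm, mul_assoc, mul_assoc, inv_mul_cancel_left₀ hb0, inv_mul_cancel₀ ha1, mul_one]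
  have e3 : b * (algebraMap F D l * a + 1) = b * (algebraMap F D m * (a + 1)) := by
    have h1 : b * (algebraMap F D l * a + 1) = algebraMap F D l * (b * a) + b := by
      rw [mul_add, mul_one, ← mul_assoc, ← Algebra.commutes l b, mul_assoc]
    have h2 : b * (algebraMap F D m * (a + 1)) = algebraMap F D m * (b * (a + 1)) := by
      rw [← mul_assoc, ← Algebra.commutes m b, mul_assoc]
    rw [h1, h2, ← e1, ← e2, add_mul, one_mul]
  have e4 : algebraMap F D l * a + 1 = algebraMap F D m * (a + 1) := mul_left_cancel₀ hb0 e3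
  have e5 : algebraMap F D (l - m) * a = algebraMap F D (m - 1) := by
    rw [map_sub, map_sub, map_one, sub_mul]
    have : algebraMap F D m * (a + 1) = algebraMap F D m * a + algebraMap F D m := by
      rw [mul_add, mul_one]
    rw [this] at e4
    have h3 : algebraMap F D l * a = algebraMap F D m * a + algebraMap F D m - 1 := by
      rw [← e4]; abel
    rw [h3]; abel
  by_cases hlm : l = m
  · rw [hlm, sub_self, map_zero, zero_mul] at e5
    have hm1 : m = 1 := by
      have : algebraMap F D (m - 1) = algebraMap F D 0 := by rw [← e5, map_zero]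
      have := (algebraMap F D).injective this
      exact sub_eq_zero.mp this
    rw [hlm, hm1, map_one, one_mul] at e1
    exact hab e1
  · have hne : algebraMap F D (l - m) ≠ 0 := by
      rw [Ne, map_eq_zero]
      exact sub_ne_zero.mpr hlm
    have ha : a = algebraMap F D ((l - m)⁻¹ * (m - 1)) := by
      rw [map_mul, map_inv₀, ← e5, inv_mul_cancel_left₀ hne]
    apply hab
    rw [ha]
    exact Algebra.commutes _ b

/-- If all additive commutators of a division ring are central, it is commutative. -/
theorem mul_comm_of_add_commutators_central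
    (hcentral : ∀ a b : D, a * b - b * a ∈ (algebraMap F D).range) :
    ∀ a b : D, a * b = b * a := by
  intro a b
  by_contra hab
  obtain ⟨l, hl⟩ := hcentral a b
  obtain ⟨m, hm⟩ := hcentral a (a * b)
  have e1 : a * (a * b) - a * b * a = a * (a * b - b * a) := by
    rw [mul_sub, mul_assoc a b a]
  rw [e1, ← hl] at hm
  have hl0 : l ≠ 0 := by
    rintro rfl
    rw [map_zero] at hl
    exact hab (sub_eq_zero.mp hl.symm)
  have hne : algebraMap F D l ≠ 0 := by
    rw [Ne, map_eq_zero]
    exact hl0
  have ha : a = algebraMap F D (m * l⁻¹) := by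
    rw [map_mul, map_inv₀, hm, mul_inv_cancel_right₀ hne]
  apply hab
  rw [ha]
  exact Algebra.commutes _ b

/-- All multiplicative commutators central implies `F → D` onto. -/
theorem surjective_algebraMap_of_mul_commutators_central [Algebra.IsCentral F D]
    (hcentral : ∀ a b : D, a ≠ 0 → b ≠ 0 → a * b * a⁻¹ * b⁻¹ ∈ (algebraMap F D).range) :
    Function.Surjective (algebraMap F D) :=
  surjective_algebraMap_of_comm (mul_comm_of_mul_commutators_central hcentral)

/-- All additive commutators central implies `F → D` onto. -/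
theorem surjective_algebraMap_of_add_commutators_central [Algebra.IsCentral F D]
    (hcentral : ∀ a b : D, a * b - b * a ∈ (algebraMap F D).range) :
    Function.Surjective (algebraMap F D) :=
  surjective_algebraMap_of_comm (mul_comm_of_add_commutators_central hcentral)

/-- **Finite centre, multiplicative commutators.** If the centre `F` of the division ring `D` is
finite and all multiplicative commutators are algebraic over `F`, then `D` is commutative. -/
theorem mul_comm_of_mul_commutators_isAlgebraic [Finite F] [Algebra.IsCentral F D]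
    (h : ∀ a b : D, a ≠ 0 → b ≠ 0 → IsAlgebraic F (a * b * a⁻¹ * b⁻¹)) :
    ∀ a b : D, a * b = b * a := by
  apply mul_comm_of_mul_commutators_central (F := F)
  intro a b ha hb
  by_contra hnr
  have hnc : ∃ c : D, c * (a * b * a⁻¹ * b⁻¹) ≠ (a * b * a⁻¹ * b⁻¹) * c := by
    by_contra hall
    push Not at hall
    apply hnr
    have hx : a * b * a⁻¹ * b⁻¹ ∈ Subalgebra.center F D := by
      rw [Subalgebra.mem_center_iff]
      intro c
      exact hall c
    exact Algebra.mem_bot.mp (Algebra.IsCentral.out hx)
  obtain ⟨g, hg, hno⟩ := exists_mul_commutator_not_algebraic _ (h a b ha hb) hnc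
  exact hno (h g _ hg (pow_ne_zero _ (mul_ne_zero (mul_ne_zero (mul_ne_zero ha hb)
    (inv_ne_zero ha)) (inv_ne_zero hb))))

/-- **Finite centre, additive commutators.** If the centre `F` of the division ring `D` is
finite and all additive commutators are algebraic over `F`, then `D` is commutative. -/
theorem mul_comm_of_add_commutators_isAlgebraic [Finite F] [Algebra.IsCentral F D]
    (h : ∀ a b : D, IsAlgebraic F (a * b - b * a)) :
    ∀ a b : D, a * b = b * a := by
  apply mul_comm_of_add_commutators_central (F := F)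
  intro a b
  by_contra hnr
  have hnc : ∃ c : D, c * (a * b - b * a) ≠ (a * b - b * a) * c := by
    by_contra hall
    push Not at hall
    apply hnr
    have hx : a * b - b * a ∈ Subalgebra.center F D := by
      rw [Subalgebra.mem_center_iff]
      intro c
      exact hall c
    exact Algebra.mem_bot.mp (Algebra.IsCentral.out hx)
  obtain ⟨g, hno⟩ := exists_add_commutator_not_algebraic _ (h a b) hnc
  exact hno (h g _)

/-- **Multiplicative commutators, arbitrary centre.** Let `D` be a division ring with centre `F`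
and let `ι : K →+* D` be a (not necessarily central) subfield. If every multiplicative commutator
satisfies a nonzero left polynomial relation of degree at most `d` over `K`, then
`[D : F] ≤ d ^ 2`. -/
theorem finite_of_mul_commutators_leftAlg_any [Algebra.IsCentral F D] {K : Type w}
    [Field K] (ι : K →+* D) (d : ℕ)
    (h : ∀ a b : D, a ≠ 0 → b ≠ 0 → ∃ α : Fin (d + 1) → K, α ≠ 0 ∧
      ∑ i, ι (α i) * (a * b * a⁻¹ * b⁻¹) ^ (i : ℕ) = 0) :
    Module.Finite F D ∧ Module.finrank F D ≤ d ^ 2 := by
  rcases finite_or_infinite F with hF | hF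
  · have hd : 1 ≤ d := by
      by_contra hd0
      have hd' : d = 0 := by omega
      subst hd'
      obtain ⟨α, hα, hsum⟩ := h 1 1 one_ne_zero one_ne_zero
      apply hα
      funext i
      have hsum' : ι (α 0) = 0 := by simpa using hsum
      have hi : i = 0 := Fin.fin_one_eq_zero i
      rw [hi]
      simpa using hsum'
    have hint : ∀ a b : D, a ≠ 0 → b ≠ 0 → IsAlgebraic F (a * b * a⁻¹ * b⁻¹) := by
      intro a b ha hb
      have h1 : ¬ LinearIndependent F (fun i : Fin (d + 1) => (a * b * a⁻¹ * b⁻¹) ^ (i : ℕ)) := by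
        apply not_linearIndependent_pow_of_forall_conj ι d
        intro y hy
        have e : y * (a * b * a⁻¹ * b⁻¹) * y⁻¹
            = (y * a * y⁻¹) * (y * b * y⁻¹) * (y * a * y⁻¹)⁻¹ * (y * b * y⁻¹)⁻¹ := by
          simp only [mul_inv_rev, inv_inv, mul_assoc, inv_mul_cancel_left₀ hy]
        rw [e]
        exact h _ _ (mul_ne_zero (mul_ne_zero hy ha) (inv_ne_zero hy))
          (mul_ne_zero (mul_ne_zero hy hb) (inv_ne_zero hy))
      obtain ⟨p, hp0, -, hp⟩ := (degLE_iff d _).mp h1
      exact ⟨p, hp0, hp⟩
    obtain ⟨h1, h2⟩ := finite_and_finrank_eq_one_of_surjective (F := F)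
      (surjective_algebraMap_of_comm (mul_comm_of_mul_commutators_isAlgebraic hint))
    exact ⟨h1, by rw [h2]; exact Nat.one_le_pow _ _ hd⟩
  · exact finite_of_mul_commutators_leftAlg ι d h

/-- **Additive commutators, arbitrary centre.** Same statement for additive commutators
`a * b - b * a`. -/
theorem finite_of_add_commutators_leftAlg_any [Algebra.IsCentral F D] {K : Type w}
    [Field K] (ι : K →+* D) (d : ℕ)
    (h : ∀ a b : D, ∃ α : Fin (d + 1) → K, α ≠ 0 ∧
      ∑ i, ι (α i) * (a * b - b * a) ^ (i : ℕ) = 0) :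
    Module.Finite F D ∧ Module.finrank F D ≤ d ^ 2 := by
  rcases finite_or_infinite F with hF | hF
  · have hd : 1 ≤ d := by
      by_contra hd0
      have hd' : d = 0 := by omega
      subst hd'
      obtain ⟨α, hα, hsum⟩ := h 1 1
      apply hα
      funext i
      have hsum' : ι (α 0) = 0 := by simpa using hsum
      have hi : i = 0 := Fin.fin_one_eq_zero i
      rw [hi]
      simpa using hsum'
    have hint : ∀ a b : D, IsAlgebraic F (a * b - b * a) := by
      intro a b
      have h1 : ¬ LinearIndependent F (fun i : Fin (d + 1) => (a * b - b * a) ^ (i : ℕ)) := by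
        apply not_linearIndependent_pow_of_forall_conj ι d
        intro y hy
        have e : y * (a * b - b * a) * y⁻¹
            = (y * a * y⁻¹) * (y * b * y⁻¹) - (y * b * y⁻¹) * (y * a * y⁻¹) := by
          simp only [mul_assoc, inv_mul_cancel_left₀ hy, mul_sub, sub_mul]
        rw [e]
        exact h _ _
      obtain ⟨p, hp0, -, hp⟩ := (degLE_iff d _).mp h1
      exact ⟨p, hp0, hp⟩
    obtain ⟨h1, h2⟩ := finite_and_finrank_eq_one_of_surjective (F := F)
      (surjective_algebraMap_of_comm (mul_comm_of_add_commutators_isAlgebraic hint))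
    exact ⟨h1, by rw [h2]; exact Nat.one_le_pow _ _ hd⟩
  · exact finite_of_add_commutators_leftAlg ι d h

end Vale.Agent.H7
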